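import Vale.Agent.P088.R2.H710.GSt

/-!
# P088, local to global: proof
-/

set_option linter.all false

open Bundle Manifold MeasureTheory Set Filter Topology Metric
open scoped ContDiff Matrix

noncomputable section

namespace Vale.Agent.P088.R2.H710

open Vale.Agent.P088
open Vale.Agent.P088.EYM hiding CUnm_statement LMatch CCont_statement CReg_statement CDiff_statement cCont cReg cDiff cDiff_ext PP SameD Gd CData_statement CMatch_statement CNear_statement CLim_statement CCoord_statement CModEq_statement CClosed_statement CGlobal_statement CChart_statement CTensor_statement wGlue wInj wClosed cUnm cMatch cChart cData cLim cCoord cModEq cClosed cGlobal cNear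

universe u

/-- A touching ball: `W` open, `x₁ ∉ W` a limit of points of `W`; then some ball in `W`, close to
`x₁`, touches the complement of `W` at a point `x₀` close to `x₁`. -/
theorem touching {n : ℕ} {W : Set (E n)} (hW : IsOpen W) {x₁ : E n} {ρ : ℝ} (hρ : 0 < ρ)
    (hx₁ : x₁ ∉ W) (hcl : x₁ ∈ closure W) :
    ∃ z x₀ : E n, x₀ ∈ ball x₁ ρ ∧ x₀ ∉ W ∧ 0 < dist z x₀ ∧ dist z x₀ < ρ ∧
      ball z (dist z x₀) ⊆ W := by
  obtain ⟨z, hzW, hz⟩ := Metric.mem_closure_iff.1 hcl (ρ / 4) (by positivity)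
  set K : Set (E n) := closedBall x₁ (ρ / 2) \ W with hK
  have hKc : IsCompact K := (isCompact_closedBall x₁ (ρ / 2)).diff hW
  have hKn : x₁ ∈ K := ⟨mem_closedBall_self (by positivity), hx₁⟩
  obtain ⟨x₀, hx₀, hmin⟩ := hKc.exists_isMinOn ⟨x₁, hKn⟩
    (continuous_const.dist continuous_id : Continuous fun y => dist z y).continuousOn
  have h1 : dist z x₀ ≤ dist z x₁ := hmin hKn
  have h2 : dist z x₁ < ρ / 4 := by rwa [dist_comm]
  have hzx : z ≠ x₀ := fun h => hx₀.2 (h ▸ hzW)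
  refine ⟨z, x₀, ?_, hx₀.2, dist_pos.2 hzx, by linarith, fun y hy => ?_⟩
  · rw [mem_ball]
    calc dist x₀ x₁ ≤ dist x₀ z + dist z x₁ := dist_triangle _ _ _
      _ < ρ := by rw [dist_comm x₀ z]; linarith
  · by_contra hyW
    have hyK : y ∈ K := by
      refine ⟨?_, hyW⟩
      rw [mem_closedBall]
      rw [mem_ball, dist_comm] at hy
      calc dist y x₁ ≤ dist y z + dist z x₁ := dist_triangle _ _ _
        _ ≤ ρ / 2 := by rw [dist_comm y z]; linarith
    have h3 : dist z x₀ ≤ dist z y := hmin hyK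
    rw [mem_ball, dist_comm] at hy
    linarith

section

variable {n N : ℕ} [NeZero n] {M₁ M₂ : Type u}
  [TopologicalSpace M₁] [ChartedSpace (EuclideanHalfSpace n) M₁] [IsManifold (𝓡∂ n) ∞ M₁]
  [TopologicalSpace M₂] [ChartedSpace (EuclideanHalfSpace n) M₂] [IsManifold (𝓡∂ n) ∞ M₂]
  [MeasurableSpace M₁] [MeasurableSpace M₂] {P : One n N M₁} {Q : One n N M₂} {G : TM.Gl M₁ M₂}

/-- A match on an open set is a local match in the interior. -/
theorem WMatch.lm {W : Set M₂} {F : M₂ → M₁} {H : M₂ → EndF N} (h : TM.WMatch P Q G W F H)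
    (hW : IsOpen W) (hI : IsOpen (Mi n M₂)) : TM.LMatch P Q G (W ∩ Mi n M₂) F H where
  isOpen := hW.inter hI
  sub := inter_subset_right
  maps := fun x hx => h.int x hx.1 hx.2
  smφ := h.smF.mono inter_subset_left
  smV := h.smH.mono inter_subset_left
  unit := fun x hx => h.unit x hx.1
  met := fun x hx => h.met x hx.1
  con := fun x hx => h.con x hx.1
  sol := fun u hu x hx => h.sol u hu x hx.1

theorem gd_open : IsOpen (TM.Gd P Q G) := by
  rw [isOpen_iff_mem_nhds]
  rintro x ⟨O', φ', V', hm', hx⟩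
  filter_upwards [hm'.isOpen.mem_nhds hx] with y hy using ⟨O', φ', V', hm', hy⟩

variable [T2Space M₁] [CompactSpace M₁] [ConnectedSpace M₁] [BorelSpace M₁]
  [T2Space M₂] [CompactSpace M₂] [ConnectedSpace M₂] [BorelSpace M₂]

/-- A match on every open set whose interior points are good. -/
theorem exists_wmatch (hn : 3 ≤ n) (hN : 0 < N) (hG : G.Ok n N) (hS : TM.SameD P Q G)
    {W : Set M₂} (hW : IsOpen W) (h : ∀ x ∈ W ∩ Mi n M₂, x ∈ TM.Gd P Q G) :
    ∃ (F : M₂ → M₁) (H : M₂ → EndF N), TM.WMatch P Q G W F H := by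
  obtain ⟨⟨hPs, hQs, -⟩, -⟩ := TM.gData n N M₁ M₂ P Q G hG hS
  obtain ⟨Φ, V', hΦ⟩ := TM.wGlue (P := P) (Q := Q) TM.fRunge TM.fConn (by omega) hN hG hPs hQs
  exact TM.wFinal EYM.aExtSys EYM.bChr TM.gUnm TM.fLoc TM.fConn TM.cChart TM.fRunge P Q G
    (by omega) hN hG hPs hQs hW Φ V' fun y hy => hΦ y (h y hy)

/-- All interior points are good. -/
theorem good_all (hn : 3 ≤ n) (hN : 0 < N) (hG : G.Ok n N) (hS : TM.SameD P Q G)
    (hst : Start P Q G) (hstep : StepI P Q G) : Mi n M₂ ⊆ TM.Gd P Q G := by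
  haveI : LocallyConnectedSpace M₂ := ChartedSpace.locallyConnectedSpace (EuclideanHalfSpace n) M₂
  obtain ⟨hMo, hMc, hMd⟩ := TM.fConn n M₂
  obtain ⟨W, F₀, H₀, hW, ⟨y₀, hyW, hyΓ⟩, hm₀⟩ := hst
  set S : Set M₂ := interior {x | x ∈ Mi n M₂ → x ∈ TM.Gd P Q G} with hS'
  have hWS : W ⊆ S := interior_maximal (fun x hx hxM => ⟨_, F₀, H₀, WMatch.lm hm₀ hW hMo, hx, hxM⟩) hW
  have hGS : TM.Gd P Q G ⊆ S := interior_maximal (fun x hx _ => hx) gd_open
  set V : Set M₂ := connectedComponentIn S y₀ with hVdef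
  have hV : IsOpen V := isOpen_interior.connectedComponentIn
  have hVc : IsPreconnected V := isPreconnected_connectedComponentIn
  have hyV : y₀ ∈ V := mem_connectedComponentIn (hWS hyW)
  have hVS : V ⊆ S := connectedComponentIn_subset _ _
  have hVG : ∀ x ∈ V ∩ Mi n M₂, x ∈ TM.Gd P Q G := fun x hx =>
    (interior_subset (hVS hx.1) : x ∈ {x | x ∈ Mi n M₂ → x ∈ TM.Gd P Q G}) hx.2
  obtain ⟨F, H, hm⟩ := exists_wmatch hn hN hG hS hV hVG
  have hsub : Mi n M₂ ⊆ V := by
    have hne : (Mi n M₂ ∩ V).Nonempty := by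
      obtain ⟨x, hx, hx'⟩ := _root_.mem_closure_iff.1 (hMd y₀) V hV hyV
      exact ⟨x, hx', hx⟩
    refine hMc.subset_of_closure_inter_subset hV hne ?_
    rintro x ⟨hxV, hxM⟩
    by_contra hx
    obtain ⟨B, hBc, hBG, hBV, hB⟩ := hstep V F H hV hVc ⟨y₀, hyV, hyΓ⟩ hm x hxM hxV hx
    have hun : IsPreconnected (V ∪ B) := hVc.union' hBV hBc
    have hfin : V ∪ B ⊆ V := hun.subset_connectedComponentIn (Or.inl hyV)
      (union_subset hVS (hBG.trans hGS))
    exact hB (subset_union_right.trans hfin)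
  exact fun x hx => hVG x ⟨hsub hx, hx⟩

end

end Vale.Agent.P088.R2.H710
end
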