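import Vale.Agent.P088.TM.H332N
import Vale.Agent.P088.TM.Asm

/-!
# P088, local to global: statements
-/

set_option linter.all false

open Bundle Manifold MeasureTheory Set Filter Topology Metric
open scoped ContDiff Matrix

noncomputable section

namespace Vale.Agent.P088.R2.H710

open Vale.Agent.P088 Vale.Agent.P088.EYM

universe u

section

variable {n N : ℕ} [NeZero n] {M₁ M₂ : Type u}
  [TopologicalSpace M₁] [ChartedSpace (EuclideanHalfSpace n) M₁] [IsManifold (𝓡∂ n) ∞ M₁]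
  [TopologicalSpace M₂] [ChartedSpace (EuclideanHalfSpace n) M₂] [IsManifold (𝓡∂ n) ∞ M₂]
  [MeasurableSpace M₁] [MeasurableSpace M₂]

/-- The local step: a match on a connected open set `V` which meets the patch can be continued at
every interior point of `∂V`, in the sense that some connected set of good points meets `V` and is
not contained in `V`. -/
def StepI (P : One n N M₁) (Q : One n N M₂) (G : TM.Gl M₁ M₂) : Prop :=
  ∀ (V : Set M₂) (F : M₂ → M₁) (H : M₂ → EndF N), IsOpen V → IsPreconnected V →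
    (V ∩ G.Γ₂).Nonempty → TM.WMatch P Q G V F H → ∀ x ∈ Mi n M₂, x ∈ closure V → x ∉ V →
    ∃ B : Set M₂, IsPreconnected B ∧ B ⊆ TM.Gd P Q G ∧ (V ∩ B).Nonempty ∧ ¬ B ⊆ V

/-- A match near a point of the patch. -/
def Start (P : One n N M₁) (Q : One n N M₂) (G : TM.Gl M₁ M₂) : Prop :=
  ∃ (W : Set M₂) (F : M₂ → M₁) (H : M₂ → EndF N), IsOpen W ∧ (W ∩ G.Γ₂).Nonempty ∧
    TM.WMatch P Q G W F H

end

/-- Local to global. -/
def RowGLOB : Prop :=
  ∀ (n N : ℕ) [NeZero n] (M₁ M₂ : Type u)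
    [TopologicalSpace M₁] [ChartedSpace (EuclideanHalfSpace n) M₁]
    [IsManifold (𝓡∂ n) ∞ M₁] [T2Space M₁] [CompactSpace M₁] [ConnectedSpace M₁] [MeasurableSpace M₁]
    [BorelSpace M₁] [TopologicalSpace M₂] [ChartedSpace (EuclideanHalfSpace n) M₂]
    [IsManifold (𝓡∂ n) ∞ M₂] [T2Space M₂] [CompactSpace M₂] [ConnectedSpace M₂] [MeasurableSpace M₂]
    [BorelSpace M₂] (P : One n N M₁) (Q : One n N M₂) (G : TM.Gl M₁ M₂), 3 ≤ n → 0 < N →
    G.Ok n N → TM.SameD P Q G → Start P Q G → Start Q P G.symm → StepI P Q G → StepI Q P G.symm →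
    TM.GE2 P Q G

end Vale.Agent.P088.R2.H710
end
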