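import Vale.Agent.P088.R2.H710.Glob

/-!
# P088, local to global: the main theorem
-/

set_option linter.all false

open Bundle Manifold MeasureTheory Set Filter Topology Metric
open scoped ContDiff Matrix

noncomputable section

namespace Vale.Agent.P088.R2.H710

open Vale.Agent.P088
open Vale.Agent.P088.EYM hiding CUnm_statement LMatch CCont_statement CReg_statement CDiff_statement cCont cReg cDiff cDiff_ext PP SameD Gd CData_statement CMatch_statement CNear_statement CLim_statement CCoord_statement CModEq_statement CClosed_statement CGlobal_statement CChart_statement CTensor_statement wGlue wInj wClosed cUnm cMatch cChart cData cLim cCoord cModEq cClosed cGlobal cNear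

universe u

section

variable {n N : ℕ} [NeZero n] {M₁ M₂ : Type u}
  [TopologicalSpace M₁] [ChartedSpace (EuclideanHalfSpace n) M₁] [IsManifold (𝓡∂ n) ∞ M₁]
  [TopologicalSpace M₂] [ChartedSpace (EuclideanHalfSpace n) M₂] [IsManifold (𝓡∂ n) ∞ M₂]
  [MeasurableSpace M₁] [MeasurableSpace M₂] {P : One n N M₁} {Q : One n N M₂} {G : TM.Gl M₁ M₂}
  [T2Space M₁] [CompactSpace M₁] [ConnectedSpace M₁] [BorelSpace M₁]
  [T2Space M₂] [CompactSpace M₂] [ConnectedSpace M₂] [BorelSpace M₂]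

/-- The global match in the interior. -/
theorem glob_int (hn : 3 ≤ n) (hN : 0 < N) (hG : G.Ok n N) (hS : TM.SameD P Q G)
    (g1 : Mi n M₂ ⊆ TM.Gd P Q G) (g2 : Mi n M₁ ⊆ TM.Gd Q P G.symm) :
    ∃ (Φ : M₂ → M₁) (Ψ : M₁ → M₂) (V : M₂ → EndF N) (V' : M₁ → EndF N),
      (∀ x ∈ Mi n M₂, ∃ O, x ∈ O ∧ TM.LMatch P Q G O Φ V) ∧
      (∀ x ∈ Mi n M₁, ∃ O, x ∈ O ∧ TM.LMatch Q P G.symm O Ψ V') ∧
      (∀ x ∈ Mi n M₁, Φ (Ψ x) = x) ∧ ∀ x ∈ Mi n M₂, Ψ (Φ x) = x := by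
  have hn2 : 2 ≤ n := le_trans (by norm_num) hn
  obtain ⟨⟨hP, hQ, hS'⟩, _⟩ := TM.gData n N M₁ M₂ P Q G hG hS
  obtain ⟨Φ, V, hΦ⟩ := TM.cGlobal_glue TM.fRunge TM.fConn hn2 hN hG hP hQ g1
  obtain ⟨Ψ, V', hΨ⟩ := TM.cGlobal_glue TM.fRunge TM.fConn hn2 hN hG.symm hQ hP g2
  refine ⟨Φ, Ψ, V, V', hΦ, hΨ, ?_, ?_⟩
  · intro x hx
    obtain ⟨O', hx', hm'⟩ := hΨ x hx
    have hy : Ψ x ∈ Mi n M₂ := hm'.maps hx'
    obtain ⟨O, hyO, hm⟩ := hΦ (Ψ x) hy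
    refine (TM.cGlobal_uniq TM.fRunge TM.fConn (P := P) (Q := Q) hn2 hN hG hP hQ hx (hm.maps hyO)
      (V := 1) (V' := V' x * V (Ψ x)) (one_mem _) ?_).1.symm
    intro u hu
    have e1 := hm'.sol _ (TM.PP_swap hG hu) x hx'
    have e2 := hm.sol u hu (Ψ x) hyO
    change u.1 x = V' x (u.2 (Ψ x)) at e1
    change u.1 x = V' x (V (Ψ x) (u.1 (Φ (Ψ x))))
    rw [← e2]
    exact e1
  · intro x hx
    obtain ⟨O, hx', hm⟩ := hΦ x hx
    have hy : Φ x ∈ Mi n M₁ := hm.maps hx'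
    obtain ⟨O', hyO, hm'⟩ := hΨ (Φ x) hy
    refine (TM.cGlobal_uniq TM.fRunge TM.fConn (P := Q) (Q := P) hn2 hN hG.symm hQ hP hx
      (hm'.maps hyO) (V := 1) (V' := V x * V' (Φ x)) (one_mem _) ?_).1.symm
    intro u hu
    have e1 := hm.sol _ (TM.PP_swap hG.symm hu) x hx'
    have e2 := hm'.sol u hu (Φ x) hyO
    change u.1 x = V x (u.2 (Φ x)) at e1
    change u.1 x = V x (V' (Φ x) (u.1 (Ψ (Φ x))))
    rw [← e2]
    exact e1

/-- From the global match in the interior to the conclusion. -/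
theorem glob_main (hn : 3 ≤ n) (hN : 0 < N) (hG : G.Ok n N) (hS : TM.SameD P Q G)
    (h : ∃ (Φ : M₂ → M₁) (Ψ : M₁ → M₂) (V : M₂ → EndF N) (V' : M₁ → EndF N),
      (∀ x ∈ Mi n M₂, ∃ O, x ∈ O ∧ TM.LMatch P Q G O Φ V) ∧
      (∀ x ∈ Mi n M₁, ∃ O, x ∈ O ∧ TM.LMatch Q P G.symm O Ψ V') ∧
      (∀ x ∈ Mi n M₁, Φ (Ψ x) = x) ∧ ∀ x ∈ Mi n M₂, Ψ (Φ x) = x) : TM.GE2 P Q G := by
  obtain ⟨Φ, Ψ, V, V', hm, hm', hinv, hinv'⟩ := h
  obtain ⟨F, H, hH, hFG⟩ := TM.fDiff n N M₁ M₂ P Q G Φ Ψ V V' hm hm' hinv hinv'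
  have hLM : ∀ x ∈ Mi n M₂, ∃ O, x ∈ O ∧ TM.LMatch P Q G O F H := by
    intro x hx
    obtain ⟨O, hxO, h⟩ := hm x hx
    exact ⟨O, hxO, TM.cMain_congr h (fun y hy => (hFG y (h.sub hy)).1)
      fun y hy => (hFG y (h.sub hy)).2⟩
  obtain ⟨hmet, hcon, huni, hsol⟩ := TM.fTensor n N M₁ M₂ P Q G F H hH hLM
  obtain ⟨⟨hP, hQ, -⟩, -⟩ := TM.gData n N M₁ M₂ P Q G hG hS
  obtain ⟨hIo, -, -⟩ := TM.fConn n M₁
  have hbd : IsClosed ((𝓡∂ n).boundary M₁) := by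
    rw [← ModelWithCorners.compl_interior]
    exact hIo.isClosed_compl
  have hGu : IsSmoothUnitary (𝓡∂ n) H := ⟨hH, huni⟩
  have hFbd : ∀ p ∈ (𝓡∂ n).boundary M₂, F p ∈ (𝓡∂ n).boundary M₁ := by
    intro p hp
    rw [← ModelWithCorners.compl_interior] at hp ⊢
    intro h
    obtain ⟨O, hO, hLO⟩ := hm' (F p) h
    have h1 : Ψ (F p) ∈ Mi n M₂ := hLO.maps hO
    have h2 : F (Ψ (F p)) = F p := by
      rw [(hFG _ h1).1]
      exact hinv _ h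
    have h3 := F.injective h2
    rw [h3] at h1
    exact hp h1
  have key : ∀ p ∈ G.Γ₂, ∀ (f₁ : M₁ → Fib N) (f₂ : M₂ → Fib N), TM.MD n G f₁ f₂ →
      f₂ p = H p (f₁ (F p)) := by
    intro p hp f₁ f₂ hf
    obtain ⟨u₁, hu₁⟩ := hP f₁ hf.h₁
    obtain ⟨u₂, hu₂⟩ := hQ f₂ hf.h₂
    have hpb : p ∈ (𝓡∂ n).boundary M₂ := TM.sub_bd hG.rel₂ hp
    have h1 := hsol (u₁, u₂) ⟨f₁, f₂, hf, hu₁, hu₂⟩ p
    have h2 := hu₂.boundary p hpb
    have h3 := hu₁.boundary (F p) (hFbd p hpb)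
    rw [← h2, ← h3]
    exact h1
  have hfix : ∀ p ∈ G.Γ₂, F p = G.ψ p := by
    intro p hp
    by_contra hne
    obtain ⟨f, hf, hfp, hf0⟩ := cMain_bump (N := N) hbd hG.rel₁ (hG.maps hp) (V := {F p}ᶜ)
      isClosed_singleton.isOpen_compl (fun h => hne (mem_singleton_iff.1 h).symm)
      (EuclideanSpace.single (⟨0, hN⟩ : Fin N) (1 : ℂ))
    obtain ⟨f₂, hf₂, hff⟩ := hG.ext f hf
    have h1 := key p hp f f₂ ⟨hf, hf₂, hff⟩
    rw [hff p hp, hfp, hf0 (F p) (fun h => h rfl), map_zero] at h1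
    have h2 : (EuclideanSpace.single (⟨0, hN⟩ : Fin N) (1 : ℂ) : Fib N) ⟨0, hN⟩ = 0 := by
      rw [h1]
      rfl
    simp at h2
  have hone : ∀ p ∈ G.Γ₂, H p = 1 := by
    intro p hp
    refine ContinuousLinearMap.ext fun e => ?_
    obtain ⟨f, hf, hfp, -⟩ := cMain_bump (N := N) hbd hG.rel₁ (hG.maps hp) isOpen_univ
      (mem_univ _) e
    obtain ⟨f₂, hf₂, hff⟩ := hG.ext f hf
    have h1 := key p hp f f₂ ⟨hf, hf₂, hff⟩
    rw [hff p hp, hfix p hp, hfp] at h1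
    exact h1.symm
  refine ⟨F, fun x => ContinuousLinearMap.adjoint (H x),
    ⟨contMDiff_adj hH, fun x => Unitary.star_mem (huni x)⟩, fun x hx => ⟨hfix x hx, ?_⟩, hmet,
    TM.cMain_conn P Q F hGu hcon, fun u hu x => ?_⟩
  · show ContinuousLinearMap.adjoint (H x) = 1
    rw [hone x hx]
    exact star_one (EndF N)
  · show u.1 (F x) = ContinuousLinearMap.adjoint (H x) (u.2 x)
    rw [hsol u hu x]
    have h4 : ContinuousLinearMap.adjoint (H x) * H x = 1 := (Unitary.mem_iff.1 (huni x)).1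
    have h5 := congrArg (fun T : EndF N => T (u.1 (F x))) h4
    exact h5.symm

end

theorem rowGLOB : RowGLOB.{u} := by
  intro n N _ M₁ M₂ _ _ _ _ _ _ _ _ _ _ _ _ _ _ _ _ P Q G hn hN hG hS h1 h2 h3 h4
  obtain ⟨⟨-, -, hS'⟩, -⟩ := TM.gData n N M₁ M₂ P Q G hG hS
  exact glob_main hn hN hG hS (glob_int hn hN hG hS (good_all hn hN hG hS h1 h3)
    (good_all hn hN hG.symm hS' h2 h4))

end Vale.Agent.P088.R2.H710
end
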