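import Vale.Agent.P088.R2.H338.Run

/-!
# P088: Runge approximation of finite families, uniformly in the family
-/

set_option linter.all false

open Bundle Manifold MeasureTheory Set Filter Topology
open scoped ContDiff

noncomputable section

namespace Vale.Agent.P088.R2.H710

section abs

variable {X : Type*} [AddCommGroup X] [Module ℂ X]

/-- A nonnegative Hermitian form. -/
structure HF (F : X → X → ℂ) : Prop where
  add : ∀ u v w, F u (v + w) = F u v + F u w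
  smul : ∀ (a : ℂ) u v, F u (a • v) = a * F u v
  conj : ∀ u v, F v u = (starRingEnd ℂ) (F u v)
  nonneg : ∀ u, 0 ≤ (F u u).re

variable {F : X → X → ℂ}

theorem HF.exp (h : HF F) (u v : X) (z : ℂ) :
    (F (u + z • v) (u + z • v)).re = (F u u).re + 2 * (z * F u v).re + ‖z‖ ^ 2 * (F v v).re := by
  have e1 : F (u + z • v) (u + z • v) = F (u + z • v) u + F (u + z • v) (z • v) := h.add _ _ _
  have e2 : F (u + z • v) u = F u u + (starRingEnd ℂ) (z * F u v) := by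
    rw [h.conj u (u + z • v), h.add, h.smul, map_add, ← h.conj u u]
  have e3 : F (u + z • v) v = F u v + (starRingEnd ℂ) z * F v v := by
    rw [h.conj v (u + z • v), h.add, h.smul, map_add, map_mul, ← h.conj v u, ← h.conj v v]
  have e4 : F (u + z • v) (z • v) = z * F u v + (z * (starRingEnd ℂ) z) * F v v := by
    rw [h.smul, e3]
    ring
  rw [e1, e2, e4, Complex.mul_conj, Complex.normSq_eq_norm_sq]
  simp only [Complex.add_re, Complex.conj_re, Complex.re_ofReal_mul]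
  ring

theorem HF.disc (h : HF F) {u v : X} {A : ℝ} (hA : 0 ≤ A)
    (hz : ∀ z : ℂ, 0 ≤ A + 2 * (z * F u v).re + ‖z‖ ^ 2 * (F v v).re) :
    ‖F u v‖ ^ 2 ≤ A * (F v v).re := by
  by_cases hB : F u v = 0
  · rw [hB, norm_zero]
    simpa using mul_nonneg hA (h.nonneg v)
  · have hpos : 0 < ‖F u v‖ ^ 2 := by positivity
    have hq : ∀ t : ℝ, 0 ≤ (‖F u v‖ ^ 2 * (F v v).re) * (t * t) + (-2 * ‖F u v‖ ^ 2) * t + A := by
      intro t
      have h := hz (-(t : ℂ) * (starRingEnd ℂ) (F u v))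
      have e1 : (-(t : ℂ) * (starRingEnd ℂ) (F u v) * F u v).re = -t * ‖F u v‖ ^ 2 := by
        rw [mul_assoc, mul_comm ((starRingEnd ℂ) (F u v)), Complex.mul_conj,
          Complex.normSq_eq_norm_sq, ← Complex.ofReal_neg, ← Complex.ofReal_mul,
          Complex.ofReal_re]
      have e2 : ‖-(t : ℂ) * (starRingEnd ℂ) (F u v)‖ ^ 2 = t * t * ‖F u v‖ ^ 2 := by
        rw [norm_mul, norm_neg, Complex.norm_real, RCLike.norm_conj, mul_pow, Real.norm_eq_abs,
          sq_abs]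
        ring
      rw [e1, e2] at h
      linarith only [h]
    have hd := discrim_le_zero hq
    unfold discrim at hd
    have h5 : ‖F u v‖ ^ 2 * (‖F u v‖ ^ 2 - A * (F v v).re) ≤ 0 := by linarith
    have h6 := nonpos_of_mul_nonpos_right h5 hpos
    linarith only [h6]

theorem HF.cs (h : HF F) (u v : X) : ‖F u v‖ ^ 2 ≤ (F u u).re * (F v v).re :=
  h.disc (h.nonneg u) fun z => by
    rw [← h.exp u v z]
    exact h.nonneg _

/-- Near minimisers are nearly orthogonal. -/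
theorem HF.near (h : HF F) (U : Submodule ℂ X) (T : X) {ε : ℝ} (hε : 0 < ε) :
    ∃ u ∈ U, ∀ v ∈ U, ‖F (T - u) v‖ ^ 2 ≤ ε * (F v v).re := by
  set S : Set ℝ := (fun u : X => (F (T - u) (T - u)).re) '' (U : Set X) with hS
  have hne : S.Nonempty := ⟨_, 0, U.zero_mem, rfl⟩
  have hbd : BddBelow S := ⟨0, by rintro _ ⟨u, -, rfl⟩; exact h.nonneg _⟩
  obtain ⟨_, ⟨u, hu, rfl⟩, hlt⟩ := exists_lt_of_csInf_lt hne
    (show sInf S < sInf S + ε by linarith)
  refine ⟨u, hu, fun v hv => h.disc hε.le fun z => ?_⟩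
  have h1 : u - z • v ∈ U := U.sub_mem hu (U.smul_mem z hv)
  have h2 : sInf S ≤ (F (T - (u - z • v)) (T - (u - z • v))).re :=
    csInf_le hbd ⟨_, h1, rfl⟩
  have h3 : T - (u - z • v) = (T - u) + z • v := by abel
  rw [h3, h.exp] at h2
  simp only at hlt
  linarith

theorem HF.add_left (h : HF F) (u v w : X) : F (u + v) w = F u w + F v w := by
  rw [h.conj w (u + v), h.add, map_add, ← h.conj w u, ← h.conj w v]

theorem HF.smul_left (h : HF F) (a : ℂ) (u v : X) : F (a • u) v = (starRingEnd ℂ) a * F u v := by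
  rw [h.conj v (a • u), h.smul, map_mul, ← h.conj v u]

theorem HF.sum_left (h : HF F) {ι : Type*} (s : Finset ι) (c : ι → ℂ) (T : ι → X) (v : X) :
    F (∑ q ∈ s, c q • T q) v = ∑ q ∈ s, (starRingEnd ℂ) (c q) * F (T q) v := by
  classical
  induction s using Finset.induction_on with
  | empty =>
    simp only [Finset.sum_empty]
    have := h.smul_left 0 0 v
    simpa using this
  | insert a s ha ih => rw [Finset.sum_insert ha, Finset.sum_insert ha, h.add_left, h.smul_left, ih]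

/-- Families of near minimisers, uniformly in the length of the family. -/
theorem HF.family (h : HF F) (U : Submodule ℂ X) {d : ℕ} (T : Fin d → X) {ε : ℝ} (hε : 0 < ε) :
    ∃ u : Fin d → X, (∀ q, u q ∈ U) ∧ ∀ (c : Fin d → ℝ) (v : X), v ∈ U →
      (F (∑ q, (c q : ℂ) • (T q - u q)) (∑ q, (c q : ℂ) • (T q - u q))).re ≤
        3 * (F ((∑ q, (c q : ℂ) • T q) - v) ((∑ q, (c q : ℂ) • T q) - v)).re +
          ε * ∑ q, c q ^ 2 := by
  set ε' : ℝ := ε / (3 * (d + 1)) with hε'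
  have hε'0 : 0 < ε' := by positivity
  choose u hu huv using fun q => h.near U (T q) hε'0
  refine ⟨u, hu, fun c v hv => ?_⟩
  set R : X := ∑ q, (c q : ℂ) • (T q - u q) with hR
  set w : X := v - ∑ q, (c q : ℂ) • u q with hw
  have hwU : w ∈ U := U.sub_mem hv (U.sum_mem fun q _ => U.smul_mem _ (hu q))
  set Tv : X := (∑ q, (c q : ℂ) • T q) - v with hTv
  have hsplit : R = Tv + w := by
    rw [hR, hTv, hw]
    simp only [smul_sub, Finset.sum_sub_distrib]
    abel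
  obtain ⟨σ, hσ⟩ : ∃ σ : ℝ, σ = ∑ q, |c q| := ⟨_, rfl⟩
  have hσ0 : 0 ≤ σ := hσ ▸ Finset.sum_nonneg fun q _ => abs_nonneg _
  set A : ℝ := √(F R R).re with hA
  set B : ℝ := √(F Tv Tv).re with hB
  set W : ℝ := √(F w w).re with hW
  have hA2 : A ^ 2 = (F R R).re := Real.sq_sqrt (h.nonneg R)
  have hB2 : B ^ 2 = (F Tv Tv).re := Real.sq_sqrt (h.nonneg Tv)
  have hW2 : W ^ 2 = (F w w).re := Real.sq_sqrt (h.nonneg w)
  have hA0 : 0 ≤ A := Real.sqrt_nonneg _
  have hB0 : 0 ≤ B := Real.sqrt_nonneg _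
  have hW0 : 0 ≤ W := Real.sqrt_nonneg _
  have hcs : ∀ a b : X, ‖F a b‖ ≤ √(F a a).re * √(F b b).re := by
    intro a b
    rw [← Real.sqrt_mul (h.nonneg a)]
    exact Real.le_sqrt_of_sq_le (h.cs a b)
  have h1 : ‖F R w‖ ≤ √ε' * σ * W := by
    rw [hR, h.sum_left]
    refine (norm_sum_le _ _).trans ?_
    rw [hσ, Finset.mul_sum, Finset.sum_mul]
    refine Finset.sum_le_sum fun q _ => ?_
    rw [norm_mul, RCLike.norm_conj, Complex.norm_real, Real.norm_eq_abs]
    have h2 : ‖F (T q - u q) w‖ ≤ √ε' * W := by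
      rw [hW, ← Real.sqrt_mul hε'0.le]
      exact Real.le_sqrt_of_sq_le (huv q w hwU)
    calc |c q| * ‖F (T q - u q) w‖ ≤ |c q| * (√ε' * W) :=
          mul_le_mul_of_nonneg_left h2 (abs_nonneg _)
      _ = √ε' * |c q| * W := by ring
  obtain ⟨η, hη⟩ : ∃ η : ℝ, η = √ε' * σ := ⟨_, rfl⟩
  rw [← hη] at h1
  have hη0 : 0 ≤ η := by rw [hη]; positivity
  have h2 : ‖F R Tv‖ ≤ A * B := hcs R Tv
  have h3 : A ^ 2 ≤ A * B + η * W := by
    have e1 : F R R = F R Tv + F R w := by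
      conv_lhs => rw [hsplit]
      rw [← hsplit]
      have : F R (Tv + w) = F R Tv + F R w := h.add _ _ _
      rw [← this, ← hsplit]
    have e2 : (F R R).re ≤ ‖F R R‖ := Complex.re_le_norm _
    rw [hA2]
    calc (F R R).re ≤ ‖F R R‖ := e2
      _ = ‖F R Tv + F R w‖ := by rw [e1]
      _ ≤ ‖F R Tv‖ + ‖F R w‖ := norm_add_le _ _
      _ ≤ A * B + η * W := add_le_add h2 h1
  have h4 : W ≤ A + B := by
    have e1 : w = R + (-1 : ℂ) • Tv := by rw [hsplit, neg_smul, one_smul]; abel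
    have e2 : (F w w).re ≤ (A + B) ^ 2 := by
      rw [e1, h.exp R Tv (-1)]
      simp only [neg_mul, one_mul, Complex.neg_re, norm_neg, norm_one, one_pow]
      have e3 : |(F R Tv).re| ≤ A * B := (Complex.abs_re_le_norm _).trans h2
      have e4 := neg_abs_le (F R Tv).re
      rw [← hA2, ← hB2]
      nlinarith
    rw [← hW2] at e2
    exact abs_le_of_sq_le_sq' e2 (by positivity) |>.2
  have h5 : A ^ 2 ≤ 3 * B ^ 2 + 3 * η ^ 2 := by
    have e1 : A ^ 2 ≤ A * (B + η) + η * B := by nlinarith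
    nlinarith [sq_nonneg (A - (B + η)), sq_nonneg (B - η)]
  have h6 : η ^ 2 ≤ ε' * (d * ∑ q, c q ^ 2) := by
    rw [hη, mul_pow, Real.sq_sqrt hε'0.le]
    refine mul_le_mul_of_nonneg_left ?_ hε'0.le
    rw [hσ]
    have e1 := sq_sum_le_card_mul_sum_sq (s := Finset.univ) (f := fun q : Fin d => |c q|)
    simpa only [Finset.card_univ, Fintype.card_fin, sq_abs] using e1
  have h7 : 3 * η ^ 2 ≤ ε * ∑ q, c q ^ 2 := by
    have hs : 0 ≤ ∑ q, c q ^ 2 := Finset.sum_nonneg fun q _ => sq_nonneg _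
    have e1 : ε' * (3 * (d + 1)) = ε := by rw [hε']; field_simp
    calc 3 * η ^ 2 ≤ 3 * (ε' * (d * ∑ q, c q ^ 2)) := by linarith
      _ ≤ (ε' * (3 * (d + 1))) * ∑ q, c q ^ 2 := by nlinarith
      _ = _ := by rw [e1]
  rw [← hA2, ← hB2]
  linarith

end abs

section man

open Vale.Agent.P088 Vale.Agent.P088.EYM Vale.Agent.P088.EYM.O Vale.Agent.P088.R2.H338

universe u

/-- The form `FK` on the smooth sections. -/
def fkX {n N : ℕ} [NeZero n] {M : Type u} [TopologicalSpace M]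
    [ChartedSpace (EuclideanHalfSpace n) M] [IsManifold (𝓡∂ n) ∞ M] [T2Space M] [CompactSpace M]
    [MeasurableSpace M] [BorelSpace M] (P : One n N M) (K : Set M) (a b : smX n N M) : ℂ :=
  FK P K a b

theorem fkX_hf {n N : ℕ} [NeZero n] {M : Type u} [TopologicalSpace M]
    [ChartedSpace (EuclideanHalfSpace n) M] [IsManifold (𝓡∂ n) ∞ M] [T2Space M] [CompactSpace M]
    [MeasurableSpace M] [BorelSpace M] (P : One n N M) (K : Set M) : HF (fkX P K) where
  add := fun u v w => fk_add P K u.2 v.2 w.2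
  smul := fun a u v => fk_smul P K a u.2 v.2
  conj := fun u v => fk_conj P K _ _
  nonneg := fun u => fk_nonneg P K u.2

/-- Quantitative Runge approximation of finite families. -/
theorem runF (n N : ℕ) [NeZero n] (M : Type u) [TopologicalSpace M]
    [ChartedSpace (EuclideanHalfSpace n) M] [IsManifold (𝓡∂ n) ∞ M] [T2Space M] [CompactSpace M]
    [ConnectedSpace M] [MeasurableSpace M] [BorelSpace M] (P : One n N M) (Γ : Set M)
    (hΓ : RelBd n Γ) (hΓn : Γ.Nonempty) (hsol : P.HasSol Γ) :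
    ∃ C : ℝ, 0 ≤ C ∧ ∀ (O' S : Set M) (d : ℕ) (T : Fin d → M → Fib N) (a b : (Fin d → ℝ) → ℝ),
      IsOpen O' → IsPreconnected O' → (O' ∩ Γ).Nonempty → (∀ q, SmS n (T q)) →
      (∀ q, ∀ x ∈ (𝓡∂ n).boundary M, T q x = 0) → IsCompact S → S ⊆ O' ∩ Mi n M →
      (∀ c, 0 ≤ a c) → (∀ c, 0 ≤ b c) →
      (∀ (c : Fin d → ℝ) (φ : M → Fib N), SmS n φ → (∀ x ∈ (𝓡∂ n).boundary M, φ x = 0) →
        ‖P.E φ (∑ q, (c q : ℂ) • T q)‖ ≤
          a c * √(∫ x in S, ‖φ x‖ ^ 2 ∂P.μ) + b c * √(∫ x, ‖φ x‖ ^ 2 ∂P.μ)) →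
      ∀ ε > 0, ∃ u : Fin d → M → Fib N, (∀ q, u q ∈ P.U Γ) ∧ ∀ c : Fin d → ℝ,
        (FK P O'ᶜ (∑ q, (c q : ℂ) • (T q - u q)) (∑ q, (c q : ℂ) • (T q - u q))).re ≤
          C * b c ^ 2 + ε * ∑ q, c q ^ 2 := by
  obtain ⟨C, hC, hrun⟩ := runQ n N M P Γ hΓ hΓn hsol
  have hbn : ((𝓡∂ n).boundary M).Nonempty := by
    obtain ⟨O, -, rfl⟩ := hΓ
    exact hΓn.mono inter_subset_right
  refine ⟨3 * C, by positivity, ?_⟩
  intro O' S d T a b hO hOp hOΓ hT hT0 hS hSO ha hb hE ε hε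
  set X := smX n N M
  set U : Submodule ℂ (smX n N M) := solX P Γ hbn hsol with hU
  have hF := fkX_hf P O'ᶜ
  set T' : Fin d → smX n N M := fun q => ⟨T q, hT q⟩ with hT'
  obtain ⟨u, hu, huc⟩ := hF.family U T' (ε := ε / 2) (by positivity)
  have hval : ∀ (c : Fin d → ℝ) (f : Fin d → smX n N M),
      ((∑ q, (c q : ℂ) • f q : smX n N M) : M → Fib N) = ∑ q, (c q : ℂ) • (f q : M → Fib N) := by
    intro c f
    simp only [Submodule.coe_sum, Submodule.coe_smul]
  refine ⟨fun q => u q, fun q => hu q, fun c => ?_⟩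
  have hTc : SmS n (∑ q, (c q : ℂ) • T q) := by
    have := (∑ q, (c q : ℂ) • T' q : smX n N M).2
    rwa [hval] at this
  have hTc0 : ∀ x ∈ (𝓡∂ n).boundary M, (∑ q, (c q : ℂ) • T q) x = 0 := by
    intro x hx
    rw [Finset.sum_apply]
    exact Finset.sum_eq_zero fun q _ => by rw [Pi.smul_apply, hT0 q x hx, smul_zero]
  have e1 : (FK P O'ᶜ (∑ q, (c q : ℂ) • (T q - (u q : M → Fib N)))
      (∑ q, (c q : ℂ) • (T q - (u q : M → Fib N)))).re =
      (fkX P O'ᶜ (∑ q, (c q : ℂ) • (T' q - u q)) (∑ q, (c q : ℂ) • (T' q - u q))).re := by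
    unfold fkX
    rw [hval]
    rfl
  have hs0 : 0 ≤ ∑ q, c q ^ 2 := Finset.sum_nonneg fun q _ => sq_nonneg _
  by_cases hc : ∑ q, c q ^ 2 = 0
  · have hc0 : ∀ q, c q = 0 := fun q =>
      pow_eq_zero_iff (two_ne_zero)|>.1 ((Finset.sum_eq_zero_iff_of_nonneg
        (fun q _ => sq_nonneg (c q))).1 hc q (Finset.mem_univ q))
    have e2 : ∑ q, (c q : ℂ) • (T q - (u q : M → Fib N)) = 0 :=
      Finset.sum_eq_zero fun q _ => by rw [hc0 q]; simp
    have e3 : (FK P O'ᶜ (0 : M → Fib N) 0).re = 0 := by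
      have h1 := hF.smul 0 0 0
      simp only [smul_zero, zero_mul] at h1
      have h2 : fkX P O'ᶜ 0 0 = FK P O'ᶜ (0 : M → Fib N) 0 := rfl
      rw [← h2, h1]
      rfl
    rw [e2, e3, hc]
    have := hb c
    positivity
  · have hcp : 0 < ∑ q, c q ^ 2 := lt_of_le_of_ne hs0 (Ne.symm hc)
    obtain ⟨v, hv, hvb⟩ := hrun O' S (∑ q, (c q : ℂ) • T q) (a c) (b c) hO hOp hOΓ hTc hTc0 hS hSO
      (ha c) (hb c) (hE c) (ε / 6 * ∑ q, c q ^ 2) (by positivity)
    have hvs : SmS n v := by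
      obtain ⟨f, -, hf⟩ := hv
      exact hf.smooth
    have h1 := huc c ⟨v, hvs⟩ hv
    have e4 : (fkX P O'ᶜ ((∑ q, (c q : ℂ) • T' q) - ⟨v, hvs⟩)
        ((∑ q, (c q : ℂ) • T' q) - ⟨v, hvs⟩)).re =
        (FK P O'ᶜ ((∑ q, (c q : ℂ) • T q) - v) ((∑ q, (c q : ℂ) • T q) - v)).re := by
      unfold fkX
      rw [Submodule.coe_sub, hval]
    rw [e4] at h1
    rw [e1]
    nlinarith

end man

end Vale.Agent.P088.R2.H710
end
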